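import Vale.Agent.H1.LT.Primal
import Vale.Agent.H1.LT2.FBase
import Vale.Agent.H19.LT2.TR

/-!
P371, row F3: from compactly supported orthonormal systems to systems of eigenfunctions.
-/

open MeasureTheory Matrix Set Topology Filter
open scoped ENNReal ComplexOrder

namespace Vale.LT2

open Vale.LT (trPow IsH1 IsPotential NegSystem LTconst Lone)

variable {N : ℕ}

/-! ### Linear algebra -/

/-- Hermitian matrices that are entrywise close to a positive diagonal matrix are positive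
definite. -/
theorem posDef_of_near_diag {X : Mat N} (hX : X.IsHermitian) (d : Fin N → ℝ) (a η : ℝ)
    (hd : ∀ i, a ≤ d i) (hη : (N : ℝ) * η < a)
    (h : ∀ i j, ‖X i j - (Matrix.diagonal (fun i => ((d i : ℝ) : ℂ)) : Mat N) i j‖ ≤ η) :
    X.PosDef := by
  refine Matrix.PosDef.of_dotProduct_mulVec_pos hX ?_
  intro v hv
  set D : Mat N := Matrix.diagonal (fun i => ((d i : ℝ) : ℂ)) with hD
  set E : Mat N := X - D with hE
  have hXE : X = D + E := by rw [hE]; abel
  have hre : (star v ⬝ᵥ X *ᵥ v).im = 0 := by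
    have := hX.im_star_dotProduct_mulVec_self v
    simpa using this
  have hs : 0 < ∑ i, ‖v i‖ ^ 2 := by
    obtain ⟨i, hi⟩ := Function.ne_iff.1 hv
    have h0 : 0 < ‖v i‖ ^ 2 := by
      have : 0 < ‖v i‖ := norm_pos_iff.2 hi
      positivity
    exact lt_of_lt_of_le h0 (Finset.single_le_sum (f := fun i => ‖v i‖ ^ 2)
      (fun i _ => by positivity) (Finset.mem_univ i))
  have hDv : star v ⬝ᵥ D *ᵥ v = ((∑ i, d i * ‖v i‖ ^ 2 : ℝ) : ℂ) := by
    simp only [hD, dotProduct, Matrix.mulVec_diagonal, Pi.star_apply, Complex.ofReal_sum]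
    refine Finset.sum_congr rfl fun i _ => ?_
    rw [Complex.ofReal_mul, ← Complex.normSq_eq_norm_sq, ← Complex.mul_conj, RCLike.star_def]
    ring
  have hEv : ‖star v ⬝ᵥ E *ᵥ v‖ ≤ N * η * ∑ i, ‖v i‖ ^ 2 := by
    have hη0 : ∀ i j : Fin N, 0 ≤ η := fun i j => (norm_nonneg _).trans (h i j)
    calc ‖star v ⬝ᵥ E *ᵥ v‖ ≤ ∑ i, ∑ j, ‖v i‖ * (η * ‖v j‖) := by
          simp only [dotProduct, Matrix.mulVec, Finset.mul_sum]
          refine (norm_sum_le _ _).trans (Finset.sum_le_sum fun i _ => ?_)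
          refine (norm_sum_le _ _).trans (Finset.sum_le_sum fun j _ => ?_)
          rw [norm_mul, norm_mul, Pi.star_apply, norm_star]
          refine mul_le_mul_of_nonneg_left ?_ (norm_nonneg _)
          exact mul_le_mul_of_nonneg_right (h i j) (norm_nonneg _)
      _ ≤ ∑ i, ∑ j, (η / 2 * ‖v i‖ ^ 2 + η / 2 * ‖v j‖ ^ 2) := by
          refine Finset.sum_le_sum fun i _ => Finset.sum_le_sum fun j _ => ?_
          have := hη0 i j
          nlinarith [mul_nonneg this (sq_nonneg (‖v i‖ - ‖v j‖))]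
      _ = N * η * ∑ i, ‖v i‖ ^ 2 := by
          simp only [Finset.sum_add_distrib, Finset.sum_const, Finset.card_univ, Fintype.card_fin,
            nsmul_eq_mul, ← Finset.mul_sum]
          ring
  have hDre : a * ∑ i, ‖v i‖ ^ 2 ≤ ∑ i, d i * ‖v i‖ ^ 2 := by
    rw [Finset.mul_sum]
    exact Finset.sum_le_sum fun i _ => mul_le_mul_of_nonneg_right (hd i) (by positivity)
  have hpos : 0 < (star v ⬝ᵥ X *ᵥ v).re := by
    rw [hXE, Matrix.add_mulVec, dotProduct_add, Complex.add_re, hDv, Complex.ofReal_re]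
    have h1 := (abs_le.1 (Complex.abs_re_le_norm (star v ⬝ᵥ E *ᵥ v))).1
    nlinarith [mul_pos (sub_pos.2 hη) hs]
  rw [Complex.lt_def]
  exact ⟨by simpa using hpos, by simp [hre]⟩

theorem eventually_posDef (X : ℕ → Mat N) (hX : ∀ n, (X n).IsHermitian) (d : Fin N → ℝ)
    (hd : ∀ i, 0 < d i)
    (h : Tendsto X atTop (𝓝 (Matrix.diagonal (fun i => ((d i : ℝ) : ℂ))))) :
    ∀ᶠ n in atTop, (X n).PosDef := by
  have hent : ∀ i j, Tendsto (fun n => X n i j) atTop
      (𝓝 ((Matrix.diagonal (fun i => ((d i : ℝ) : ℂ)) : Mat N) i j)) := fun i j =>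
    (tendsto_pi_nhds.1 (tendsto_pi_nhds.1 h i)) j
  obtain ⟨a, ha0, ha⟩ : ∃ a : ℝ, 0 < a ∧ ∀ i, a ≤ d i := by
    rcases isEmpty_or_nonempty (Fin N) with he | he
    · exact ⟨1, one_pos, fun i => (he.false i).elim⟩
    · obtain ⟨i0, hi0⟩ := Finite.exists_min d
      exact ⟨d i0, hd i0, hi0⟩
  have hη : (0 : ℝ) < a / (N + 1) := by positivity
  have hη2 : (N : ℝ) * (a / (N + 1)) < a := by
    rw [mul_div_assoc', div_lt_iff₀ (by positivity)]
    nlinarith
  have hev : ∀ᶠ n in atTop, ∀ i j,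
      ‖X n i j - (Matrix.diagonal (fun i => ((d i : ℝ) : ℂ)) : Mat N) i j‖ ≤ a / (N + 1) := by
    rw [eventually_all]
    intro i
    rw [eventually_all]
    intro j
    have := (tendsto_iff_norm_sub_tendsto_zero.1 (hent i j)).eventually (gt_mem_nhds hη)
    filter_upwards [this] with n hn using hn.le
  filter_upwards [hev] with n hn
  exact posDef_of_near_diag (hX n) d a _ ha hη2 hn

/-- the inverse square root -/
noncomputable def isq (G : Mat N) : Mat N := cfc (fun t : ℝ => (√t)⁻¹) G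

theorem isq_herm (G : Mat N) : (isq G).IsHermitian := by
  have : IsSelfAdjoint (isq G) := cfc_predicate _ _
  exact this

theorem isq_spec {G : Mat N} (hG : G.PosDef) : isq G * G * (isq G)ᴴ = 1 := by
  have hs := spectrum_pos_of_posDef hG
  have hsa : IsSelfAdjoint G := hG.isHermitian
  have hc : ContinuousOn (fun t : ℝ => (√t)⁻¹) (spectrum ℝ G) :=
    (Real.continuous_sqrt.continuousOn).inv₀ fun t ht => (Real.sqrt_pos.2 (hs t ht)).ne'
  rw [(isq_herm G).eq]
  unfold isq
  conv_lhs => rw [show cfc (fun t : ℝ => (√t)⁻¹) G * G * cfc (fun t : ℝ => (√t)⁻¹) G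
    = cfc (fun t : ℝ => (√t)⁻¹) G * cfc (fun t : ℝ => t) G * cfc (fun t : ℝ => (√t)⁻¹) G by
      rw [cfc_id' ℝ G]]
  have hid : ContinuousOn (fun t : ℝ => t) (spectrum ℝ G) := continuousOn_id
  rw [← cfc_mul (fun t : ℝ => (√t)⁻¹) (fun t : ℝ => t) G hc hid,
    ← cfc_mul (fun t : ℝ => (√t)⁻¹ * t) (fun t : ℝ => (√t)⁻¹) G (hc.mul hid) hc]
  have : cfc (fun t : ℝ => (√t)⁻¹ * t * (√t)⁻¹) G = cfc (fun _ : ℝ => (1 : ℝ)) G := by
    refine cfc_congr fun t ht => ?_
    have h1 := hs t ht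
    have h2 : √t ≠ 0 := (Real.sqrt_pos.2 h1).ne'
    have h3 : √t * √t = t := Real.mul_self_sqrt h1.le
    show (√t)⁻¹ * t * (√t)⁻¹ = 1
    field_simp
    rw [pow_two, h3]
  rw [this, cfc_const_one ℝ G]

theorem isq_one : isq (1 : Mat N) = 1 := by
  unfold isq
  rw [cfc_apply_one]
  simp

section
open scoped Matrix.Norms.L2Operator

theorem tendsto_isq (G : ℕ → Mat N) (hG : ∀ᶠ n in atTop, (G n).PosDef)
    (h : Tendsto G atTop (𝓝 1)) : Tendsto (fun n => isq (G n)) atTop (𝓝 1) := by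
  have h1 : ContinuousOn (fun A : Mat N => cfc (fun t : ℝ => (√t)⁻¹) A) {A | A.PosDef} := by
    refine continuousOn_cfc_posDef _ ?_
    exact (Real.continuous_sqrt.continuousOn).inv₀ fun t ht => (Real.sqrt_pos.2 ht).ne'
  have h2 := (h1 1 (Matrix.PosDef.one)).tendsto
  have h3 : Tendsto G atTop (𝓝[{A | A.PosDef}] 1) := tendsto_nhdsWithin_iff.2 ⟨h, hG⟩
  have h4 := h2.comp h3
  have h5 : cfc (fun t : ℝ => (√t)⁻¹) (1 : Mat N) = 1 := isq_one
  rw [h5] at h4
  exact h4

theorem tendsto_trPow (s : ℝ) (B : ℕ → Mat N) (B0 : Mat N) (hB : ∀ᶠ n in atTop, (B n).PosDef)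
    (hB0 : B0.PosDef) (h : Tendsto B atTop (𝓝 B0)) :
    Tendsto (fun n => trPow s (B n)) atTop (𝓝 (trPow s B0)) := by
  have h1 : ContinuousOn (fun A : Mat N => cfc (fun t : ℝ => t ^ s) A) {A | A.PosDef} := by
    refine continuousOn_cfc_posDef _ ?_
    exact fun t ht => (Real.continuousAt_rpow_const t s (Or.inl (ne_of_gt ht))).continuousWithinAt
  have h2 := (h1 B0 hB0).tendsto
  have h3 : Tendsto B atTop (𝓝[{A | A.PosDef}] B0) := tendsto_nhdsWithin_iff.2 ⟨h, hB⟩
  have h4 : Tendsto (fun n => cfc (fun t : ℝ => t ^ s) (B n)) atTop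
      (𝓝 (cfc (fun t : ℝ => t ^ s) B0)) := h2.comp h3
  have h5 : Tendsto (fun n => ((cfc (fun t : ℝ => t ^ s) (B n)).trace).re) atTop
      (𝓝 ((cfc (fun t : ℝ => t ^ s) B0).trace).re) := by
    have hc : Continuous (fun A : Mat N => (A.trace).re) :=
      Complex.continuous_re.comp (continuous_id.matrix_trace)
    exact (hc.tendsto _).comp h4
  rw [trPow_eq_cfc s B0 hB0.isHermitian]
  refine h5.congr' ?_
  filter_upwards [hB] with n hn
  rw [trPow_eq_cfc s (B n) hn.isHermitian]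

end

variable {m : ℕ}

/-! ### Linear combinations -/

/-- linear combinations of a family -/
noncomputable def comb (C : Mat N) (φ : Fin N → ℝ → Fin m → ℂ) (j : Fin N) (x : ℝ) :
    Fin m → ℂ := fun i => ∑ a, C j a * φ a x i

theorem comb_eq (C : Mat N) (φ : Fin N → ℝ → Fin m → ℂ) (j : Fin N) (x : ℝ) :
    comb C φ j x = ∑ a, C j a • φ a x := by
  funext i
  simp [comb, Finset.sum_apply]

theorem comb_dot (A : Matrix (Fin m) (Fin m) ℂ) (φ : Fin N → ℝ → Fin m → ℂ) (C : Mat N)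
    (j k : Fin N) (x : ℝ) :
    comb C φ j x ⬝ᵥ star (A.mulVec (comb C φ k x))
      = ∑ b, ∑ a, C j a * star (C k b) * (φ a x ⬝ᵥ star (A.mulVec (φ b x))) := by
  have h1 : star (A.mulVec (comb C φ k x)) = ∑ b, star (C k b) • star (A.mulVec (φ b x)) := by
    rw [comb_eq, Matrix.mulVec_sum, star_sum]
    refine Finset.sum_congr rfl fun b _ => ?_
    rw [Matrix.mulVec_smul, star_smul]
  rw [h1, dotProduct_sum]
  refine Finset.sum_congr rfl fun b _ => ?_
  rw [comb_eq, sum_dotProduct]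
  refine Finset.sum_congr rfl fun a _ => ?_
  rw [dotProduct_smul, smul_dotProduct, smul_eq_mul, smul_eq_mul]
  ring

theorem comb_form (A : ℝ → Matrix (Fin m) (Fin m) ℂ) (φ : Fin N → ℝ → Fin m → ℂ) (C : Mat N)
    (hint : ∀ a b, Integrable (fun x => φ a x ⬝ᵥ star ((A x).mulVec (φ b x)))) (j k : Fin N) :
    ∫ x, comb C φ j x ⬝ᵥ star ((A x).mulVec (comb C φ k x))
      = (C * Matrix.of (fun a b => ∫ x, φ a x ⬝ᵥ star ((A x).mulVec (φ b x))) * Cᴴ) j k := by
  simp only [comb_dot]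
  rw [integral_finsetSum _ fun b _ => integrable_finsetSum _ fun a _ => (hint a b).const_mul _]
  rw [Matrix.mul_apply]
  refine Finset.sum_congr rfl fun b _ => ?_
  rw [integral_finsetSum _ fun a _ => (hint a b).const_mul _, Matrix.mul_apply, Finset.sum_mul]
  refine Finset.sum_congr rfl fun a _ => ?_
  rw [integral_const_mul, Matrix.of_apply, Matrix.conjTranspose_apply]
  ring

theorem isH1_comb (φ dφ : Fin N → ℝ → Fin m → ℂ) (h : ∀ a, IsH1 (φ a) (dφ a)) (C : Mat N)
    (j : Fin N) : IsH1 (comb C φ j) (comb C dφ j) where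
  memLp i := memLp_finsetSum _ fun a _ => ((h a).memLp i).const_mul (C j a)
  memLp_deriv i := memLp_finsetSum _ fun a _ => ((h a).memLp_deriv i).const_mul (C j a)
  ftc i a b := by
    have hii : ∀ c, IntervalIntegrable (fun t => C j c * dφ c t i) volume a b := fun c =>
      (Vale.LT.Dual.h1_ii ((h c).memLp_deriv i) a b).const_mul _
    unfold comb
    rw [intervalIntegral.integral_finsetSum fun c _ => hii c, ← Finset.sum_sub_distrib]
    refine Finset.sum_congr rfl fun c _ => ?_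
    rw [intervalIntegral.integral_const_mul, ← (h c).ftc i a b]
    ring

/-! ### Integrability -/

theorem integrable_dot {f g : ℝ → Fin m → ℂ} (hf : ∀ i, MemLp (fun x => f x i) 2 volume)
    (hg : ∀ i, MemLp (fun x => g x i) 2 volume) : Integrable (fun x => f x ⬝ᵥ star (g x)) := by
  simp only [dotProduct, Pi.star_apply]
  exact integrable_finsetSum _ fun i _ => (hf i).integrable_mul (hg i).star

theorem integrable_pot2 (p : ℝ) (hp : 1 ≤ p) (W : ℝ → Matrix (Fin m) (Fin m) ℂ)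
    (hW : IsPotential p W) {f df g dg : ℝ → Fin m → ℂ} (hf : IsH1 f df) (hg : IsH1 g dg) :
    Integrable (fun x => f x ⬝ᵥ star ((W x).mulVec (g x))) := by
  obtain ⟨C1, hC10, hC1⟩ := hf.bounded
  obtain ⟨C2, hC20, hC2⟩ := hg.bounded
  have hent : ∀ x i k, ‖W x i k‖ ≤ m + trPow p (W x) := by
    intro x i k
    refine (Vale.LT.norm_entry_le (W x) (hW.posSemidef x) i k).trans ?_
    have h1 : Vale.LT.trFun (fun t => t) (W x) ≤ Vale.LT.trFun (fun t => 1 + t ^ p) (W x) := by
      refine Vale.LT.trFun_mono _ _ _ (hW.posSemidef x) (fun t ht => ?_)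
      rcases le_total t 1 with h1 | h1
      · have := Real.rpow_nonneg ht p
        linarith
      · have : t ^ (1 : ℝ) ≤ t ^ p := Real.rpow_le_rpow_of_exponent_le h1 hp
        rw [Real.rpow_one] at this
        linarith
    refine h1.trans (le_of_eq ?_)
    have hH := (hW.posSemidef x).isHermitian
    simp [Vale.LT.trFun, trPow, hH, Finset.sum_add_distrib]
  simp only [dotProduct, Matrix.mulVec, Pi.star_apply, star_sum, Finset.mul_sum]
  refine integrable_finsetSum _ fun i _ => integrable_finsetSum _ fun k _ => ?_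
  have hi2 : Integrable (fun x => ‖f x i‖ ^ 2) :=
    (memLp_two_iff_integrable_sq_norm (hf.memLp i).1).1 (hf.memLp i)
  have hk2 : Integrable (fun x => ‖g x k‖ ^ 2) :=
    (memLp_two_iff_integrable_sq_norm (hg.memLp k).1).1 (hg.memLp k)
  have hdom : Integrable (fun x => (m : ℝ) * (‖f x i‖ ^ 2 + ‖g x k‖ ^ 2)
      + (C1 * C2) * trPow p (W x)) :=
    ((hi2.add hk2).const_mul _).add (hW.integrable.const_mul _)
  refine hdom.mono' ?_ (Filter.Eventually.of_forall fun x => ?_)
  · exact ((hf.memLp i).1).mul (((hW.measurable i k).aestronglyMeasurable.mul (hg.memLp k).1).star)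
  · rw [norm_mul, norm_star, norm_mul]
    have h1 := hent x i k
    have h2 := hC1 x i
    have h3 := hC2 x k
    have h4 : 0 ≤ trPow p (W x) := by
      have hH := (hW.posSemidef x).isHermitian
      simp only [trPow, hH, dite_true]
      exact Finset.sum_nonneg fun j _ =>
        Real.rpow_nonneg ((hW.posSemidef x).eigenvalues_nonneg j) _
    calc ‖f x i‖ * (‖W x i k‖ * ‖g x k‖) = ‖W x i k‖ * (‖f x i‖ * ‖g x k‖) := by ring
      _ ≤ (m + trPow p (W x)) * (‖f x i‖ * ‖g x k‖) := by gcongr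
      _ = m * (‖f x i‖ * ‖g x k‖) + trPow p (W x) * (‖f x i‖ * ‖g x k‖) := by ring
      _ ≤ m * (‖f x i‖ ^ 2 + ‖g x k‖ ^ 2) + trPow p (W x) * (C1 * C2) := by
          gcongr
          nlinarith [sq_nonneg (‖f x i‖ - ‖g x k‖), sq_nonneg (‖f x i‖ + ‖g x k‖),
            norm_nonneg (f x i), norm_nonneg (g x k)]
      _ = _ := by ring

/-- the form is Hermitian -/
theorem form_star (A : Matrix (Fin m) (Fin m) ℂ) (hA : A.IsHermitian) (v w : Fin m → ℂ) :
    star (v ⬝ᵥ star (A.mulVec w)) = w ⬝ᵥ star (A.mulVec v) := by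
  rw [← Matrix.dotProduct_star, dotProduct_comm, Matrix.star_mulVec, hA.eq,
    Matrix.dotProduct_mulVec, dotProduct_comm]

theorem form_eq (A : Matrix (Fin m) (Fin m) ℂ) (hA : A.IsHermitian) (v w : Fin m → ℂ) :
    v ⬝ᵥ star (A.mulVec w) = star w ⬝ᵥ A.mulVec v := by
  rw [Matrix.star_mulVec, hA.eq, Matrix.dotProduct_mulVec, dotProduct_comm]

/-! ### Cutoff functions -/

theorem exists_cutoff : ∃ (h k : ℕ → ℝ → ℝ) (M : ℝ), 0 ≤ M ∧
    (∀ n x, HasDerivAt (h n) (k n x) x) ∧ (∀ n, Continuous (k n)) ∧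
    (∀ n x, |h n x| ≤ M) ∧ (∀ n x, |k n x| ≤ M) ∧
    (∀ x, Tendsto (fun n => h n x) atTop (𝓝 1)) ∧ (∀ x, Tendsto (fun n => k n x) atTop (𝓝 0)) ∧
    (∀ (n : ℕ) x, 2 * ((n : ℝ) + 1) ≤ |x| → h n x = 0) := by
  let f : ContDiffBump (0 : ℝ) := ⟨1, 2, one_pos, by norm_num⟩
  have hf1 : ContDiff ℝ 1 f := f.contDiff
  have hfc : Continuous f := hf1.continuous
  have hdc : Continuous (deriv f) := hf1.continuous_deriv le_rfl
  have hdiff : ∀ x, HasDerivAt f (deriv f x) x := fun x =>
    (hf1.differentiable (by norm_num) x).hasDerivAt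
  obtain ⟨M0, hM0⟩ := (f.hasCompactSupport.deriv).exists_bound_of_continuous hdc
  have hM00 : 0 ≤ M0 := (norm_nonneg _).trans (hM0 0)
  refine ⟨fun n x => f (x / (n + 1)), fun n x => deriv f (x / (n + 1)) / (n + 1), M0 + 1,
    by linarith, ?_, ?_, ?_, ?_, ?_, ?_, ?_⟩
  · intro n x
    have h1 : HasDerivAt (fun x : ℝ => x / ((n : ℝ) + 1)) (1 / ((n : ℝ) + 1)) x :=
      (hasDerivAt_id x).div_const _
    have h2 := (hdiff (x / (n + 1))).comp x h1
    have h3 : HasDerivAt (fun x : ℝ => f (x / ((n : ℝ) + 1)))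
        (deriv f (x / (n + 1)) * (1 / ((n : ℝ) + 1))) x := h2
    rw [mul_one_div] at h3
    exact h3
  · intro n
    exact (hdc.comp (continuous_id.div_const _)).div_const _
  · intro n x
    rw [abs_of_nonneg (f.nonneg)]
    exact (f.le_one).trans (by linarith)
  · intro n x
    have h1 := hM0 (x / (n + 1))
    rw [Real.norm_eq_abs] at h1
    rw [abs_div, abs_of_pos (show (0 : ℝ) < n + 1 by positivity)]
    have h2 : (1 : ℝ) ≤ n + 1 := by
      have : (0 : ℝ) ≤ n := Nat.cast_nonneg n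
      linarith
    calc |deriv f (x / (n + 1))| / (n + 1) ≤ M0 / 1 := by
          apply div_le_div₀ hM00 h1 one_pos h2
      _ ≤ M0 + 1 := by rw [div_one]; linarith
  · intro x
    have h1 : Tendsto (fun n : ℕ => x / ((n : ℝ) + 1)) atTop (𝓝 0) := by
      have := (tendsto_one_div_add_atTop_nhds_zero_nat (𝕜 := ℝ)).const_mul x
      simpa [div_eq_mul_inv] using this
    have h2 := (hfc.tendsto 0).comp h1
    have h3 : f 0 = 1 := f.one_of_mem_closedBall (Metric.mem_closedBall_self f.rIn_pos.le)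
    rw [h3] at h2
    exact h2
  · intro x
    refine squeeze_zero_norm (a := fun n : ℕ => M0 * (1 / ((n : ℝ) + 1))) (fun n => ?_) ?_
    · rw [Real.norm_eq_abs, abs_div, abs_of_pos (show (0 : ℝ) < n + 1 by positivity),
        mul_one_div]
      exact div_le_div_of_nonneg_right (hM0 _) (by positivity)
    · simpa using (tendsto_one_div_add_atTop_nhds_zero_nat (𝕜 := ℝ)).const_mul M0
  · intro n x hx
    refine f.zero_of_le_dist ?_
    show (2 : ℝ) ≤ dist (x / (n + 1)) 0
    rw [Real.dist_eq, sub_zero, abs_div, abs_of_pos (show (0 : ℝ) < n + 1 by positivity),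
      le_div_iff₀ (by positivity)]
    exact hx

theorem isH1_cut {f df : ℝ → Fin m → ℂ} (hf : IsH1 f df) (h k : ℝ → ℝ) (M : ℝ)
    (hd : ∀ x, HasDerivAt h (k x) x) (hk : Continuous k) (hM : ∀ x, |h x| ≤ M)
    (hM' : ∀ x, |k x| ≤ M) :
    IsH1 (fun x i => f x i * (h x : ℂ)) (fun x i => df x i * (h x : ℂ) + f x i * (k x : ℂ)) where
  memLp i := by
    have hc : Continuous h := continuous_iff_continuousAt.2 fun x => (hd x).continuousAt
    refine (hf.memLp i).of_le_mul (c := M) ?_ (Eventually.of_forall fun x => ?_)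
    · exact (hf.memLp i).1.mul (Complex.continuous_ofReal.comp hc).aestronglyMeasurable
    · rw [norm_mul, Complex.norm_real, mul_comm]
      exact mul_le_mul_of_nonneg_right (hM x) (norm_nonneg _)
  memLp_deriv i := by
    have hc : Continuous h := continuous_iff_continuousAt.2 fun x => (hd x).continuousAt
    refine MemLp.add ?_ ?_
    · refine (hf.memLp_deriv i).of_le_mul (c := M) ?_ (Eventually.of_forall fun x => ?_)
      · exact (hf.memLp_deriv i).1.mul (Complex.continuous_ofReal.comp hc).aestronglyMeasurable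
      · rw [norm_mul, Complex.norm_real, mul_comm]
        exact mul_le_mul_of_nonneg_right (hM x) (norm_nonneg _)
    · refine (hf.memLp i).of_le_mul (c := M) ?_ (Eventually.of_forall fun x => ?_)
      · exact (hf.memLp i).1.mul (Complex.continuous_ofReal.comp hk).aestronglyMeasurable
      · rw [norm_mul, Complex.norm_real, mul_comm]
        exact mul_le_mul_of_nonneg_right (hM' x) (norm_nonneg _)
  ftc i a b := by
    have hg : LocallyIntegrable (fun x => df x i) :=
      (hf.memLp_deriv i).locallyIntegrable (by norm_num)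
    rw [Vale.LT.ibp_complex hg (hf.ftc i) hd hk a b]

/-- dominated convergence for bounded multipliers -/
theorem tendsto_mult (g : ℕ → ℝ → ℝ) (M c : ℝ) (hg : ∀ n, Continuous (g n))
    (hM : ∀ n x, |g n x| ≤ M) (hlim : ∀ x, Tendsto (fun n => g n x) atTop (𝓝 c)) (F : ℝ → ℂ)
    (hF : Integrable F) :
    Tendsto (fun n => ∫ x, F x * (g n x : ℂ)) atTop (𝓝 ((∫ x, F x) * (c : ℂ))) := by
  rw [← integral_mul_const]
  refine tendsto_integral_of_dominated_convergence (fun x => M * ‖F x‖) (fun n => ?_)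
    (hF.norm.const_mul M) (fun n => Eventually.of_forall fun x => ?_)
    (Eventually.of_forall fun x => ?_)
  · exact hF.1.mul (Complex.continuous_ofReal.comp (hg n)).aestronglyMeasurable
  · rw [norm_mul, Complex.norm_real, mul_comm]
    exact mul_le_mul_of_nonneg_right (hM n x) (norm_nonneg _)
  · exact ((Complex.continuous_ofReal.tendsto _).comp (hlim x)).const_mul _

/-! ### Assembly -/


theorem conj_form_integral (A : ℝ → Matrix (Fin m) (Fin m) ℂ) (hA : ∀ x, (A x).IsHermitian)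
    (f g : ℝ → Fin m → ℂ) :
    star (∫ x, f x ⬝ᵥ star ((A x).mulVec (g x))) = ∫ x, g x ⬝ᵥ star ((A x).mulVec (f x)) := by
  have h1 : star (∫ x, f x ⬝ᵥ star ((A x).mulVec (g x)))
      = ∫ x, star (f x ⬝ᵥ star ((A x).mulVec (g x))) := (integral_conj).symm
  rw [h1]
  congr 1
  funext x
  exact form_star (A x) (hA x) _ _

theorem integral_add4 {f1 f2 f3 f4 : ℝ → ℂ} (h1 : Integrable f1) (h2 : Integrable f2)
    (h3 : Integrable f3) (h4 : Integrable f4) :
    ∫ x, (f1 x + f2 x + f3 x + f4 x)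
      = (∫ x, f1 x) + (∫ x, f2 x) + (∫ x, f3 x) + ∫ x, f4 x := by
  have e1 : ∫ x, (f1 x + f2 x + f3 x + f4 x) = (∫ x, (f1 x + f2 x + f3 x)) + ∫ x, f4 x :=
    integral_add ((h1.add h2).add h3) h4
  have e2 : ∫ x, (f1 x + f2 x + f3 x) = (∫ x, (f1 x + f2 x)) + ∫ x, f3 x :=
    integral_add (h1.add h2) h3
  have e3 : ∫ x, (f1 x + f2 x) = (∫ x, f1 x) + ∫ x, f2 x := integral_add h1 h2
  rw [e1, e2, e3]

/-- Row F3. -/
theorem system_of_compact' (γ : ℝ) (h1 : 1 / 2 < γ) (_h2 : γ < 3 / 2)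
    (hc : ∀ (N m : ℕ) (W : ℝ → Matrix (Fin m) (Fin m) ℂ), IsPotential (γ + 1 / 2) W →
      ∀ (u du : Fin N → ℝ → Fin m → ℂ), (∀ j, IsH1 (u j) (du j)) →
      ∀ L : ℝ, 0 < L → (∀ j x, L ≤ |x| → u j x = 0) →
      (∀ j k, (∫ x, u j x ⬝ᵥ star (u k x)) = if j = k then 1 else 0) →
      (Matrix.of fun j k => (∫ x, u j x ⬝ᵥ star ((W x).mulVec (u k x)))
        - ∫ x, du j x ⬝ᵥ star (du k x) : Mat N).PosDef →
      trPow γ (Matrix.of fun j k => (∫ x, u j x ⬝ᵥ star ((W x).mulVec (u k x)))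
        - ∫ x, du j x ⬝ᵥ star (du k x) : Mat N) ≤ Lone γ * ∫ x, trPow (γ + 1 / 2) (W x))
    {m n : ℕ} (W : ℝ → Matrix (Fin m) (Fin m) ℂ) (hW : IsPotential (γ + 1 / 2) W)
    (S : NegSystem W n) :
    ∑ j, |S.lam j| ^ γ ≤ Lone γ * ∫ x, trPow (γ + 1 / 2) (W x) := by
  choose dψ hH1 hE using S.eigen
  obtain ⟨h, k, M, hM0, hd, hk, hM, hM', hl, hl', hsupp⟩ := exists_cutoff
  have hp : 1 ≤ γ + 1 / 2 := by linarith
  have hhc : ∀ n, Continuous (h n) := fun n =>
    continuous_iff_continuousAt.2 fun x => (hd n x).continuousAt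
  have hWh : ∀ x, (W x).IsHermitian := fun x => (hW.posSemidef x).isHermitian
  -- the cut-off functions
  set φ : ℕ → Fin n → ℝ → Fin m → ℂ := fun r a x i => S.psi a x i * (h r x : ℂ) with hφ
  set dφ : ℕ → Fin n → ℝ → Fin m → ℂ := fun r a x i =>
    dψ a x i * (h r x : ℂ) + S.psi a x i * (k r x : ℂ) with hdφ
  have hφ1 : ∀ r a, IsH1 (φ r a) (dφ r a) := fun r a =>
    isH1_cut (hH1 a) (h r) (k r) M (hd r) (hk r) (hM r) (hM' r)
  -- Gram matrices and forms
  set One : ℝ → Matrix (Fin m) (Fin m) ℂ := fun _ => 1 with hOne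
  have hOneh : ∀ x, (One x).IsHermitian := fun x => Matrix.isHermitian_one
  set G : ℕ → Mat n := fun r => Matrix.of fun a b =>
    ∫ x, φ r a x ⬝ᵥ star ((One x).mulVec (φ r b x)) with hG
  set P : ℕ → Mat n := fun r => Matrix.of fun a b =>
    ∫ x, φ r a x ⬝ᵥ star ((W x).mulVec (φ r b x)) with hP
  set D : ℕ → Mat n := fun r => Matrix.of fun a b =>
    ∫ x, dφ r a x ⬝ᵥ star ((One x).mulVec (dφ r b x)) with hD
  set Λ : Mat n := Matrix.diagonal (fun i => ((|S.lam i| : ℝ) : ℂ)) with hΛ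
  have hGh : ∀ r, (G r).IsHermitian := by
    intro r
    ext a b
    exact conj_form_integral One hOneh _ _
  have hPh : ∀ r, (P r).IsHermitian := by
    intro r
    ext a b
    exact conj_form_integral W hWh _ _
  have hDh : ∀ r, (D r).IsHermitian := by
    intro r
    ext a b
    exact conj_form_integral One hOneh _ _
  have hh2c : ∀ r, Continuous (fun x => h r x * h r x) := fun r => (hhc r).mul (hhc r)
  have hhkc : ∀ r, Continuous (fun x => h r x * k r x) := fun r => (hhc r).mul (hk r)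
  have hk2c : ∀ r, Continuous (fun x => k r x * k r x) := fun r => (hk r).mul (hk r)
  have hh2b : ∀ r x, |h r x * h r x| ≤ M * M := fun r x => by
    rw [abs_mul]; exact mul_le_mul (hM r x) (hM r x) (abs_nonneg _) hM0
  have hhkb : ∀ r x, |h r x * k r x| ≤ M * M := fun r x => by
    rw [abs_mul]; exact mul_le_mul (hM r x) (hM' r x) (abs_nonneg _) hM0
  have hk2b : ∀ r x, |k r x * k r x| ≤ M * M := fun r x => by
    rw [abs_mul]; exact mul_le_mul (hM' r x) (hM' r x) (abs_nonneg _) hM0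
  have hh2l : ∀ x, Tendsto (fun r => h r x * h r x) atTop (𝓝 1) := fun x => by
    simpa using (hl x).mul (hl x)
  have hhkl : ∀ x, Tendsto (fun r => h r x * k r x) atTop (𝓝 0) := fun x => by
    simpa using (hl x).mul (hl' x)
  have hk2l : ∀ x, Tendsto (fun r => k r x * k r x) atTop (𝓝 0) := fun x => by
    simpa using (hl' x).mul (hl' x)
  have hcut : ∀ (A : Matrix (Fin m) (Fin m) ℂ) (v w : Fin m → ℂ) (s t : ℝ),
      (fun i => v i * (s : ℂ)) ⬝ᵥ star (A.mulVec (fun i => w i * (t : ℂ)))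
        = (v ⬝ᵥ star (A.mulVec w)) * ((s * t : ℝ) : ℂ) := by
    intro A v w s t
    have e1 : (fun i => v i * (s : ℂ)) = (s : ℂ) • v := by
      funext i; simp [mul_comm]
    have e2 : (fun i => w i * (t : ℂ)) = (t : ℂ) • w := by
      funext i; simp [mul_comm]
    rw [e1, e2, Matrix.mulVec_smul, star_smul, smul_dotProduct, dotProduct_smul, smul_eq_mul,
      smul_eq_mul, RCLike.star_def, Complex.conj_ofReal, Complex.ofReal_mul]
    ring
  have hGlim : Tendsto G atTop (𝓝 1) := by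
    refine tendsto_pi_nhds.2 fun a => tendsto_pi_nhds.2 fun b => ?_
    have e1 : (fun r => G r a b) = fun r => ∫ x, (S.psi a x ⬝ᵥ star (S.psi b x))
        * ((h r x * h r x : ℝ) : ℂ) := by
      funext r
      show ∫ x, φ r a x ⬝ᵥ star ((One x).mulVec (φ r b x)) = _
      congr 1
      funext x
      rw [hφ]
      simp only []
      rw [hcut, hOne]
      simp only [Matrix.one_mulVec]
    have e2 := tendsto_mult _ _ 1 hh2c hh2b hh2l _
      (integrable_dot (hH1 a).memLp (hH1 b).memLp)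
    have e3 : (∫ x, S.psi a x ⬝ᵥ star (S.psi b x)) * ((1 : ℝ) : ℂ) = (1 : Mat n) a b := by
      have : (∫ x, S.psi a x ⬝ᵥ star (S.psi b x)) = ∫ x, star (S.psi b x) ⬝ᵥ S.psi a x := by
        congr 1; funext x; exact dotProduct_comm _ _
      rw [this, S.orthonormal, Complex.ofReal_one, mul_one, Matrix.one_apply]
      simp only [eq_comm]
    rw [e3] at e2
    rw [e1]
    exact e2
  have hPDlim : Tendsto (fun r => P r - D r) atTop (𝓝 Λ) := by
    refine tendsto_pi_nhds.2 fun a => tendsto_pi_nhds.2 fun b => ?_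
    have e1 : ∀ r, P r a b = ∫ x, (S.psi a x ⬝ᵥ star ((W x).mulVec (S.psi b x)))
        * ((h r x * h r x : ℝ) : ℂ) := by
      intro r
      show ∫ x, φ r a x ⬝ᵥ star ((W x).mulVec (φ r b x)) = _
      congr 1
      funext x
      exact hcut _ _ _ _ _
    have i1 := integrable_dot (hH1 a).memLp_deriv (hH1 b).memLp_deriv
    have i2 := integrable_dot (hH1 a).memLp_deriv (hH1 b).memLp
    have i3 := integrable_dot (hH1 a).memLp (hH1 b).memLp_deriv
    have i4 := integrable_dot (hH1 a).memLp (hH1 b).memLp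
    have i5 := integrable_pot2 _ hp W hW (hH1 a) (hH1 b)
    have hbd : ∀ (F : ℝ → ℂ), Integrable F → ∀ (g : ℝ → ℝ), Continuous g →
        (∀ x, |g x| ≤ M * M) → Integrable (fun x => F x * (g x : ℂ)) := by
      intro F hF g hg hgb
      refine (hF.norm.const_mul (M * M)).mono' ?_ (Eventually.of_forall fun x => ?_)
      · exact hF.1.mul (Complex.continuous_ofReal.comp hg).aestronglyMeasurable
      · rw [norm_mul, Complex.norm_real, mul_comm]
        exact mul_le_mul_of_nonneg_right (hgb x) (norm_nonneg _)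
    have e2 : ∀ r, D r a b = (∫ x, (dψ a x ⬝ᵥ star (dψ b x)) * ((h r x * h r x : ℝ) : ℂ))
        + (∫ x, (dψ a x ⬝ᵥ star (S.psi b x)) * ((h r x * k r x : ℝ) : ℂ))
        + (∫ x, (S.psi a x ⬝ᵥ star (dψ b x)) * ((h r x * k r x : ℝ) : ℂ))
        + ∫ x, (S.psi a x ⬝ᵥ star (S.psi b x)) * ((k r x * k r x : ℝ) : ℂ) := by
      intro r
      have j1 := hbd _ i1 _ (hh2c r) (hh2b r)
      have j2 := hbd _ i2 _ (hhkc r) (hhkb r)
      have j3 := hbd _ i3 _ (hhkc r) (hhkb r)
      have j4 := hbd _ i4 _ (hk2c r) (hk2b r)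
      refine Eq.trans ?_ (integral_add4 j1 j2 j3 j4)
      show ∫ x, dφ r a x ⬝ᵥ star ((One x).mulVec (dφ r b x)) = _
      congr 1
      funext x
      simp only [hOne, Matrix.one_mulVec, hdφ]
      simp only [dotProduct, Pi.star_apply, star_add, star_mul', RCLike.star_def,
        Complex.conj_ofReal, Finset.sum_mul, Complex.ofReal_mul, ← Finset.sum_add_distrib]
      refine Finset.sum_congr rfl fun i _ => ?_
      ring
    have t1 := tendsto_mult _ _ 1 hh2c hh2b hh2l _ i5
    have t2 := tendsto_mult _ _ 1 hh2c hh2b hh2l _ i1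
    have t3 := tendsto_mult _ _ 0 hhkc hhkb hhkl _ i2
    have t4 := tendsto_mult _ _ 0 hhkc hhkb hhkl _ i3
    have t5 := tendsto_mult _ _ 0 hk2c hk2b hk2l _ i4
    have t6 := t1.sub (((t2.add t3).add t4).add t5)
    have e3 : Λ a b = (∫ x, S.psi a x ⬝ᵥ star ((W x).mulVec (S.psi b x))) * ((1 : ℝ) : ℂ)
        - ((∫ x, dψ a x ⬝ᵥ star (dψ b x)) * ((1 : ℝ) : ℂ)
          + (∫ x, dψ a x ⬝ᵥ star (S.psi b x)) * ((0 : ℝ) : ℂ)
          + (∫ x, S.psi a x ⬝ᵥ star (dψ b x)) * ((0 : ℝ) : ℂ)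
          + (∫ x, S.psi a x ⬝ᵥ star (S.psi b x)) * ((0 : ℝ) : ℂ)) := by
      have h5 := hE a (S.psi b) (dψ b) (hH1 b)
      have h6 : (∫ x, S.psi a x ⬝ᵥ star ((W x).mulVec (S.psi b x)))
          = ∫ x, star (S.psi b x) ⬝ᵥ (W x).mulVec (S.psi a x) := by
        congr 1; funext x; exact form_eq _ (hWh x) _ _
      have h7 : (∫ x, dψ a x ⬝ᵥ star (dψ b x)) = ∫ x, star (dψ b x) ⬝ᵥ dψ a x := by
        congr 1; funext x; exact dotProduct_comm _ _
      rw [h6, h7, Complex.ofReal_one, Complex.ofReal_zero]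
      have h8 : (∫ x, star (S.psi b x) ⬝ᵥ (W x).mulVec (S.psi a x))
          - (∫ x, star (dψ b x) ⬝ᵥ dψ a x) = -((S.lam a : ℂ) * if b = a then 1 else 0) := by
        rw [← S.orthonormal, ← h5]; ring
      have h9 : Λ a b = -((S.lam a : ℂ) * if b = a then 1 else 0) := by
        rw [hΛ, Matrix.diagonal_apply]
        by_cases hab : a = b
        · subst hab
          rw [if_pos rfl, if_pos rfl, abs_of_neg (S.neg a)]
          push_cast
          ring
        · rw [if_neg hab, if_neg (Ne.symm hab)]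
          ring
      rw [h9, ← h8]
      ring
    rw [e3]
    refine t6.congr fun r => ?_
    rw [Matrix.sub_apply, e1, e2]
  have hone : Tendsto G atTop
      (𝓝 (Matrix.diagonal (fun i : Fin n => (((fun _ => 1 : Fin n → ℝ) i : ℝ) : ℂ)))) := by
    simpa using hGlim
  have hGpos : ∀ᶠ r in atTop, (G r).PosDef :=
    eventually_posDef G hGh (fun _ => 1) (fun _ => one_pos) hone
  have hC := tendsto_isq G hGpos hGlim
  set C : ℕ → Mat n := fun r => isq (G r) with hCdef
  set B : ℕ → Mat n := fun r => C r * (P r - D r) * (C r)ᴴ with hB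
  have hBlim : Tendsto B atTop (𝓝 Λ) := by
    have h3 : Tendsto (fun r => (C r)ᴴ) atTop (𝓝 ((1 : Mat n)ᴴ)) :=
      (continuous_id.matrix_conjTranspose.tendsto (1 : Mat n)).comp hC
    have h4 : Tendsto B atTop (𝓝 (1 * Λ * (1 : Mat n)ᴴ)) := (hC.mul hPDlim).mul h3
    simpa using h4
  have hBh : ∀ r, (B r).IsHermitian := fun r =>
    Matrix.isHermitian_mul_mul_conjTranspose _ ((hPh r).sub (hDh r))
  have hlam : ∀ i, 0 < |S.lam i| := fun i => abs_pos.2 (S.neg i).ne
  have hBpos : ∀ᶠ r in atTop, (B r).PosDef :=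
    eventually_posDef B hBh (fun i => |S.lam i|) hlam hBlim
  have hΛpos : Λ.PosDef := Matrix.PosDef.diagonal fun i => by
    exact_mod_cast hlam i
  have hlim := tendsto_trPow γ B Λ hBpos hΛpos hBlim
  have hval : trPow γ Λ = ∑ j, |S.lam j| ^ γ := by
    rw [Vale.LT.trPow_eq_trFun, hΛ, Vale.LT.trFun_diagonal]
  rw [hval] at hlim
  refine le_of_tendsto hlim ?_
  filter_upwards [hGpos, hBpos] with r hGr hBr
  -- the orthonormal system
  have hintG : ∀ a b, Integrable (fun x => φ r a x ⬝ᵥ star ((One x).mulVec (φ r b x))) := by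
    intro a b
    simp only [hOne, Matrix.one_mulVec]
    exact integrable_dot (hφ1 r a).memLp (hφ1 r b).memLp
  have hintD : ∀ a b, Integrable (fun x => dφ r a x ⬝ᵥ star ((One x).mulVec (dφ r b x))) := by
    intro a b
    simp only [hOne, Matrix.one_mulVec]
    exact integrable_dot (hφ1 r a).memLp_deriv (hφ1 r b).memLp_deriv
  have hintP : ∀ a b, Integrable (fun x => φ r a x ⬝ᵥ star ((W x).mulVec (φ r b x))) :=
    fun a b => integrable_pot2 _ hp W hW (hφ1 r a) (hφ1 r b)
  have hgram : ∀ j l, (∫ x, comb (C r) (φ r) j x ⬝ᵥ star (comb (C r) (φ r) l x))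
      = if j = l then 1 else 0 := by
    intro j l
    have h5 := comb_form One (φ r) (C r) hintG j l
    simp only [hOne, Matrix.one_mulVec] at h5
    rw [h5]
    have h6 : C r * G r * (C r)ᴴ = 1 := isq_spec hGr
    have h7 : (Matrix.of fun a b => ∫ x, φ r a x ⬝ᵥ star (φ r b x) : Mat n) = G r := by
      rw [hG]
      simp only [hOne, Matrix.one_mulVec]
    rw [h7, h6, Matrix.one_apply]
  have hform : (Matrix.of fun j l => (∫ x, comb (C r) (φ r) j x ⬝ᵥ
      star ((W x).mulVec (comb (C r) (φ r) l x)))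
        - ∫ x, comb (C r) (dφ r) j x ⬝ᵥ star (comb (C r) (dφ r) l x) : Mat n) = B r := by
    ext j l
    have h5 := comb_form W (φ r) (C r) hintP j l
    have h6 := comb_form One (dφ r) (C r) hintD j l
    simp only [hOne, Matrix.one_mulVec] at h6
    rw [Matrix.of_apply, h5, h6, hB]
    simp only [Matrix.mul_sub, Matrix.sub_mul, Matrix.sub_apply]
    rw [hP, hD]
    simp only [hOne, Matrix.one_mulVec]
  have hfin := hc n m W hW (comb (C r) (φ r)) (comb (C r) (dφ r))
    (fun j => isH1_comb _ _ (hφ1 r) (C r) j) (2 * ((r : ℝ) + 1)) (by positivity)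
    (fun j x hx => by
      rw [comb_eq]
      refine Finset.sum_eq_zero fun a _ => ?_
      have : φ r a x = 0 := by
        funext i
        simp [hφ, hsupp r x hx]
      rw [this, smul_zero]) hgram
  rw [hform] at hfin
  exact hfin hBr

end Vale.LT2
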