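import Mathlib

namespace Vale.Agent.H25.P150

open MeasureTheory ProbabilityTheory

theorem expBound {ι : Type} [Fintype ι] (c : ι → ℝ) :
    Integrable (fun G : ι → ℝ => Real.exp (∑ e, c e * G e))
      (Measure.pi (fun _ : ι => gaussianReal 0 1)) ∧
    ∫ G, Real.exp (∑ e, c e * G e) ∂(Measure.pi (fun _ : ι => gaussianReal 0 1))
      = Real.exp ((∑ e, c e ^ 2) / 2) := by
  have h1 : (fun G : ι → ℝ => Real.exp (∑ e, c e * G e)) =
      fun G : ι → ℝ => ∏ e, Real.exp (c e * G e) := by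
    funext G
    rw [Real.exp_sum]
  have h2 : ∀ t : ℝ, ∫ x, Real.exp (t * x) ∂(gaussianReal 0 1) = Real.exp (t ^ 2 / 2) := by
    intro t
    have := congrFun (mgf_fun_id_gaussianReal (μ := 0) (v := 1)) t
    unfold mgf at this
    rw [this]
    congr 1
    simp
  constructor
  · rw [h1]
    exact Integrable.fintype_prod (f := fun e x => Real.exp (c e * x))
      (fun e => integrable_exp_mul_gaussianReal (c e))
  · rw [h1, integral_fintype_prod_eq_prod (f := fun e x => Real.exp (c e * x))]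
    simp_rw [h2]
    rw [← Real.exp_sum, Finset.sum_div]

theorem maxBound {ι X : Type} [Fintype ι] [Fintype X] [Nonempty X] (a : X → ι → ℝ) (V : ℝ)
    (hV : ∀ x, ∑ e, a x e ^ 2 ≤ V) (l : ℝ) (hl : 0 < l)
    (Av : (ι → ℝ) → ℝ) (hAm : Integrable Av (Measure.pi (fun _ : ι => gaussianReal 0 1)))
    (hA : ∀ G, l * Av G ≤ Real.log (∑ x, Real.exp (l * ∑ e, a x e * G e))) :
    l * ∫ G, Av G ∂(Measure.pi (fun _ : ι => gaussianReal 0 1))
      ≤ Real.log (Fintype.card X) + l ^ 2 * V / 2 := by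
  set μ : Measure (ι → ℝ) := Measure.pi (fun _ : ι => gaussianReal 0 1) with hμ
  have hE : ∀ x, Integrable (fun G : ι → ℝ => Real.exp (l * ∑ e, a x e * G e)) μ ∧
      ∫ G, Real.exp (l * ∑ e, a x e * G e) ∂μ ≤ Real.exp (l ^ 2 * V / 2) := by
    intro x
    have e1 : (fun G : ι → ℝ => Real.exp (l * ∑ e, a x e * G e)) =
        fun G : ι → ℝ => Real.exp (∑ e, (l * a x e) * G e) := by
      funext G
      congr 1
      rw [Finset.mul_sum]
      exact Finset.sum_congr rfl (fun e _ => by ring)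
    obtain ⟨h1, h2⟩ := expBound (fun e => l * a x e)
    rw [e1]
    refine ⟨h1, ?_⟩
    rw [h2]
    apply Real.exp_le_exp.2
    have : ∑ e, (l * a x e) ^ 2 = l ^ 2 * ∑ e, a x e ^ 2 := by
      rw [Finset.mul_sum]
      exact Finset.sum_congr rfl (fun e _ => by ring)
    rw [this]
    have := mul_le_mul_of_nonneg_left (hV x) (sq_nonneg l)
    linarith
  set Y : (ι → ℝ) → ℝ := fun G => ∑ x, Real.exp (l * ∑ e, a x e * G e) with hY
  set c : ℝ := Fintype.card X * Real.exp (l ^ 2 * V / 2) with hc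
  have hcard : (0 : ℝ) < Fintype.card X := by exact_mod_cast Fintype.card_pos
  have hc0 : 0 < c := by positivity
  have hYi : Integrable Y μ := integrable_finsetSum _ (fun x _ => (hE x).1)
  have hYint : ∫ G, Y G ∂μ ≤ c := by
    rw [hY, integral_finsetSum _ (fun x _ => (hE x).1)]
    refine (Finset.sum_le_card_nsmul _ _ _ (fun x _ => (hE x).2)).trans ?_
    rw [nsmul_eq_mul, Finset.card_univ]
  have hpt : ∀ G, l * Av G ≤ Y G / c - 1 + Real.log c := by
    intro G
    have hYpos : 0 < Y G := Finset.sum_pos (fun x _ => Real.exp_pos _) Finset.univ_nonempty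
    have h1 := Real.log_le_sub_one_of_pos (div_pos hYpos hc0)
    rw [Real.log_div hYpos.ne' hc0.ne'] at h1
    have h2 := hA G
    linarith
  have h3 : ∫ G, l * Av G ∂μ ≤ ∫ G, (Y G / c - 1 + Real.log c) ∂μ := by
    apply integral_mono (hAm.const_mul l) _ hpt
    exact ((hYi.div_const c).sub (integrable_const 1)).add (integrable_const _)
  have hi0 : Integrable (fun G => Y G / c) μ := hYi.div_const c
  have hi1 : Integrable (fun G => Y G / c - 1) μ := hi0.sub (integrable_const 1)
  have h4 : ∫ G, (Y G / c - 1 + Real.log c) ∂μ = (∫ G, Y G ∂μ) / c - 1 + Real.log c := by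
    have e1 : ∫ G, (Y G / c - 1 + Real.log c) ∂μ = (∫ G, (Y G / c - 1) ∂μ) +
        ∫ _G, Real.log c ∂μ := integral_add hi1 (integrable_const _)
    have e2 : ∫ G, (Y G / c - 1) ∂μ = (∫ G, Y G / c ∂μ) - ∫ _G, (1 : ℝ) ∂μ :=
      integral_sub hi0 (integrable_const 1)
    rw [e1, e2, integral_div]
    simp
  have h5 : (∫ G, Y G ∂μ) / c ≤ 1 := (div_le_one hc0).2 hYint
  have h6 : Real.log c = Real.log (Fintype.card X) + l ^ 2 * V / 2 := by
    rw [hc, Real.log_mul hcard.ne' (Real.exp_pos _).ne', Real.log_exp]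
  rw [integral_const_mul] at h3
  linarith

end Vale.Agent.H25.P150
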