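import Vale.Agent.H1.LT2.Defs

/-!
Row J of the proof of the sharp one-dimensional Lieb-Thirring inequality: scalar integrals.
-/

open MeasureTheory Matrix Set
open scoped ENNReal ComplexOrder

namespace Vale.LT2

namespace JRow

open Filter Topology

/-- `log (1 + t) ≤ t ^ s / s`. -/
theorem log_one_add_le (t s : ℝ) (ht : 0 ≤ t) (hs : 0 < s) (hs1 : s ≤ 1) :
    Real.log (1 + t) ≤ t ^ s / s := by
  have h1 : (1 + t) ^ s ≤ 1 + t ^ s := by
    have := Real.rpow_add_le_add_rpow (p := s) (a := 1) (b := t) zero_le_one ht hs.le hs1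
    rwa [Real.one_rpow] at this
  have h2 : Real.log ((1 + t) ^ s) = s * Real.log (1 + t) := Real.log_rpow (by linarith) s
  have h3 := Real.log_le_sub_one_of_pos (x := (1 + t) ^ s) (Real.rpow_pos_of_pos (by linarith) s)
  rw [le_div_iff₀ hs]
  nlinarith

theorem g_nonneg (z l : ℝ) (hz : 0 ≤ z) (hl : 0 < l) : 0 ≤ Real.log (1 + z / l) :=
  Real.log_nonneg (by have := div_nonneg hz hl.le; linarith)

/-- integrability of the basic integrand -/
theorem integrableOn_g (α : ℝ) (h0 : 0 < α) (h1 : α < 1) (z : ℝ) (hz : 0 ≤ z) :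
    IntegrableOn (fun l : ℝ => l ^ (α - 1) * Real.log (1 + z / l)) (Ioi 0) := by
  have hmeas : Measurable (fun l : ℝ => l ^ (α - 1) * Real.log (1 + z / l)) := by fun_prop
  rw [← Ioc_union_Ioi_eq_Ioi (zero_le_one (α := ℝ))]
  refine IntegrableOn.union ?_ ?_
  · -- near zero
    have hb : IntegrableOn (fun l : ℝ => (z ^ (α / 2) / (α / 2)) * l ^ (α / 2 - 1)) (Ioc 0 1) := by
      have h := (intervalIntegral.intervalIntegrable_rpow' (a := 0) (b := 1) (r := α / 2 - 1)
        (by linarith))
      rw [intervalIntegrable_iff_integrableOn_Ioc_of_le zero_le_one] at h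
      exact h.const_mul _
    refine Integrable.mono' hb hmeas.aestronglyMeasurable ?_
    refine (ae_restrict_iff' measurableSet_Ioc).2 (Eventually.of_forall fun l hl => ?_)
    have hl0 : 0 < l := hl.1
    have hg := g_nonneg z l hz hl0
    have hp : 0 < l ^ (α - 1) := Real.rpow_pos_of_pos hl0 _
    rw [Real.norm_eq_abs, abs_of_nonneg (mul_nonneg hp.le hg)]
    have h2 := log_one_add_le (z / l) (α / 2) (div_nonneg hz hl0.le) (by linarith) (by linarith)
    have h3 : (z / l) ^ (α / 2) = z ^ (α / 2) * l ^ (-(α / 2)) := by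
      rw [Real.div_rpow hz hl0.le, Real.rpow_neg hl0.le]; rfl
    calc l ^ (α - 1) * Real.log (1 + z / l)
        ≤ l ^ (α - 1) * ((z / l) ^ (α / 2) / (α / 2)) := mul_le_mul_of_nonneg_left h2 hp.le
      _ = z ^ (α / 2) / (α / 2) * (l ^ (α - 1) * l ^ (-(α / 2))) := by rw [h3]; ring
      _ = z ^ (α / 2) / (α / 2) * l ^ (α / 2 - 1) := by
          rw [← Real.rpow_add hl0]; congr 2; ring
  · -- at infinity
    have hb : IntegrableOn (fun l : ℝ => z * l ^ (α - 2)) (Ioi 1) :=
      (integrableOn_Ioi_rpow_of_lt (by linarith) zero_lt_one).const_mul _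
    refine Integrable.mono' hb hmeas.aestronglyMeasurable ?_
    refine (ae_restrict_iff' measurableSet_Ioi).2 (Eventually.of_forall fun l hl => ?_)
    have hl0 : 0 < l := lt_trans zero_lt_one hl
    have hg := g_nonneg z l hz hl0
    have hp : 0 < l ^ (α - 1) := Real.rpow_pos_of_pos hl0 _
    rw [Real.norm_eq_abs, abs_of_nonneg (mul_nonneg hp.le hg)]
    have h2 : Real.log (1 + z / l) ≤ z / l := by
      have := Real.log_le_sub_one_of_pos (x := 1 + z / l)
        (by have := div_nonneg hz hl0.le; linarith)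
      linarith
    calc l ^ (α - 1) * Real.log (1 + z / l)
        ≤ l ^ (α - 1) * (z / l) := mul_le_mul_of_nonneg_left h2 hp.le
      _ = z * (l ^ (α - 1) * l⁻¹) := by ring
      _ = z * l ^ (α - 2) := by
          rw [← Real.rpow_neg_one l, ← Real.rpow_add hl0]; congr 2; ring

end JRow

open JRow in
theorem Jc_pos (α : ℝ) (h0 : 0 < α) (h1 : α < 1) : 0 < Jc α := by
  have hint := integrableOn_g α h0 h1 1 zero_le_one
  unfold Jc
  rw [setIntegral_pos_iff_support_of_nonneg_ae]
  · have hsub : Ioi (0 : ℝ) ⊆ Function.support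
        (fun l : ℝ => l ^ (α - 1) * Real.log (1 + 1 / l)) ∩ Ioi 0 := by
      intro l hl
      have hl0 : (0 : ℝ) < l := hl
      refine ⟨?_, hl⟩
      have : 0 < l ^ (α - 1) * Real.log (1 + 1 / l) := by
        refine mul_pos (Real.rpow_pos_of_pos hl0 _) (Real.log_pos ?_)
        have : 0 < 1 / l := by positivity
        linarith
      exact this.ne'
    refine lt_of_lt_of_le ?_ (measure_mono hsub)
    simp
  · refine (ae_restrict_iff' measurableSet_Ioi).2 (Filter.Eventually.of_forall fun l hl => ?_)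
    have hl0 : (0 : ℝ) < l := hl
    exact mul_nonneg (Real.rpow_nonneg hl0.le _) (g_nonneg 1 l zero_le_one hl0)
  · exact hint

open JRow in
theorem integrableOn_J (α : ℝ) (h0 : 0 < α) (h1 : α < 1) (z : ℝ) (hz : 0 ≤ z) :
    IntegrableOn (fun l : ℝ => l ^ (α - 1) * Real.log (1 + z / l)) (Ioi 0) ∧
      ∫ l in Ioi (0 : ℝ), l ^ (α - 1) * Real.log (1 + z / l) = Jc α * z ^ α := by
  refine ⟨integrableOn_g α h0 h1 z hz, ?_⟩
  rcases hz.eq_or_lt with hz0 | hz0
  · subst hz0
    simp [Real.zero_rpow h0.ne']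
  · have h := integral_comp_mul_left_Ioi
      (fun l : ℝ => l ^ (α - 1) * Real.log (1 + z / l)) 0 hz0
    rw [mul_zero] at h
    have h2 : ∫ x in Ioi (0 : ℝ), (z * x) ^ (α - 1) * Real.log (1 + z / (z * x)) =
        z ^ (α - 1) * Jc α := by
      unfold Jc
      rw [← integral_const_mul]
      refine setIntegral_congr_fun measurableSet_Ioi fun x hx => ?_
      have hx0 : (0 : ℝ) < x := hx
      show (z * x) ^ (α - 1) * Real.log (1 + z / (z * x)) = _
      rw [Real.mul_rpow hz0.le hx0.le]
      have : z / (z * x) = 1 / x := by field_simp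
      rw [this]; ring
    rw [h2] at h
    have h3 : ∫ l in Ioi (0 : ℝ), l ^ (α - 1) * Real.log (1 + z / l) =
        z * (z ^ (α - 1) * Jc α) := by
      rw [h, smul_eq_mul, ← mul_assoc, mul_inv_cancel₀ hz0.ne', one_mul]
    rw [h3]
    have h4 : z * z ^ (α - 1) = z ^ α := by
      conv_lhs => rw [← Real.rpow_one z, ← Real.rpow_mul hz0.le, one_mul, ← Real.rpow_add hz0]
      congr 1; ring
    rw [← mul_assoc, h4, mul_comm]

namespace JRow

open Filter Topology

theorem h_bounds (z l : ℝ) (hz : 0 ≤ z) (hl : 0 < l) :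
    0 ≤ (l + z) * Real.log (1 + z / l) - z ∧
      (l + z) * Real.log (1 + z / l) - z ≤ z * Real.log (1 + z / l) := by
  have hzl : 0 ≤ z / l := div_nonneg hz hl.le
  have hpos : 0 < 1 + z / l := by linarith
  constructor
  · have h := Real.one_sub_inv_le_log_of_pos hpos
    have e : 1 - (1 + z / l)⁻¹ = z / (l + z) := by
      field_simp
      ring
    rw [e] at h
    have h2 := mul_le_mul_of_nonneg_left h (by linarith : (0 : ℝ) ≤ l + z)
    have e2 : (l + z) * (z / (l + z)) = z := by
      have : l + z ≠ 0 := by linarith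
      field_simp
    linarith
  · have h := Real.log_le_sub_one_of_pos hpos
    have h2 := mul_le_mul_of_nonneg_left h hl.le
    have e2 : l * (1 + z / l - 1) = z := by field_simp; ring
    nlinarith

end JRow

open JRow Filter Topology in
theorem integrableOn_J2 (α : ℝ) (h0 : 0 < α) (h1 : α < 1) (z : ℝ) (hz : 0 ≤ z) :
    IntegrableOn (fun l : ℝ => l ^ (α - 1) * ((l + z) * Real.log (1 + z / l) - z)) (Ioi 0) ∧
      ∫ l in Ioi (0 : ℝ), l ^ (α - 1) * ((l + z) * Real.log (1 + z / l) - z)
        = Jc α * z ^ (1 + α) / (1 + α) := by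
  obtain ⟨hg, hgi⟩ := integrableOn_J α h0 h1 z hz
  have hmeas : Measurable
      (fun l : ℝ => l ^ (α - 1) * ((l + z) * Real.log (1 + z / l) - z)) := by fun_prop
  have hI : IntegrableOn (fun l : ℝ => l ^ (α - 1) * ((l + z) * Real.log (1 + z / l) - z))
      (Ioi 0) := by
    refine Integrable.mono' (hg.const_mul z) hmeas.aestronglyMeasurable ?_
    refine (ae_restrict_iff' measurableSet_Ioi).2 (Eventually.of_forall fun l hl => ?_)
    have hl0 : (0 : ℝ) < l := hl
    obtain ⟨b1, b2⟩ := h_bounds z l hz hl0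
    have hp : 0 < l ^ (α - 1) := Real.rpow_pos_of_pos hl0 _
    rw [Real.norm_eq_abs, abs_of_nonneg (mul_nonneg hp.le b1)]
    nlinarith
  refine ⟨hI, ?_⟩
  -- fundamental theorem of calculus
  set f : ℝ → ℝ := fun l => l ^ α * ((l + z) * Real.log (1 + z / l) - z) with hf
  set f' : ℝ → ℝ := fun l => (1 + α) * (l ^ (α - 1) * ((l + z) * Real.log (1 + z / l) - z))
    - z * (l ^ (α - 1) * Real.log (1 + z / l)) with hf'
  have hf'int : IntegrableOn f' (Ioi 0) := (hI.const_mul _).sub (hg.const_mul _)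
  have hderiv : ∀ x ∈ Ioi (0 : ℝ), HasDerivAt f (f' x) x := by
    intro x hx
    have hx0 : (0 : ℝ) < x := hx
    have hpos : 0 < 1 + z / x := by have := div_nonneg hz hx0.le; linarith
    have d1 : HasDerivAt (fun l : ℝ => l ^ α) (α * x ^ (α - 1)) x :=
      Real.hasDerivAt_rpow_const (Or.inl hx0.ne')
    have d2 : HasDerivAt (fun l : ℝ => 1 + z / l) (-z / x ^ 2) x := by
      have := ((hasDerivAt_const x z).div (hasDerivAt_id x) hx0.ne').const_add 1
      simpa using this
    have d3 := d2.log hpos.ne'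
    have d4 := (((hasDerivAt_id x).add_const z).mul d3).sub_const z
    have d5 := d1.mul d4
    refine d5.congr_deriv ?_
    simp only [hf', id, Pi.mul_apply]
    have e1 : x ^ α = x ^ (α - 1) * x := by
      conv_rhs => rw [← Real.rpow_one x, ← Real.rpow_mul hx0.le, one_mul, ← Real.rpow_add hx0]
      congr 1; ring
    rw [e1]
    have hxz : x + z ≠ 0 := by linarith
    field_simp
    ring
  have hup : ∀ l : ℝ, 0 < l → |f l| ≤ z * (l ^ α * Real.log (1 + z / l)) := by
    intro l hl
    obtain ⟨b1, b2⟩ := h_bounds z l hz hl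
    have hp : 0 < l ^ α := Real.rpow_pos_of_pos hl _
    simp only [hf]
    rw [abs_of_nonneg (mul_nonneg hp.le b1)]
    nlinarith
  have htop : Tendsto f atTop (𝓝 0) := by
    rw [tendsto_zero_iff_abs_tendsto_zero]
    have hlim : Tendsto (fun l : ℝ => z * (z * l ^ (-(1 - α)))) atTop (𝓝 0) := by
      have := ((tendsto_rpow_neg_atTop (by linarith : 0 < 1 - α)).const_mul z).const_mul z
      simpa using this
    refine tendsto_of_tendsto_of_tendsto_of_le_of_le' tendsto_const_nhds hlim
      (Eventually.of_forall fun l => abs_nonneg _) ?_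
    filter_upwards [eventually_gt_atTop 0] with l hl
    refine (hup l hl).trans (mul_le_mul_of_nonneg_left ?_ hz)
    have h2 : Real.log (1 + z / l) ≤ z / l := by
      have := Real.log_le_sub_one_of_pos (x := 1 + z / l)
        (by have := div_nonneg hz hl.le; linarith)
      linarith
    calc l ^ α * Real.log (1 + z / l) ≤ l ^ α * (z / l) :=
          mul_le_mul_of_nonneg_left h2 (Real.rpow_nonneg hl.le _)
      _ = z * (l ^ α * l⁻¹) := by ring
      _ = z * l ^ (-(1 - α)) := by
          rw [← Real.rpow_neg_one l, ← Real.rpow_add hl]; congr 2; ring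
  have hf0 : f 0 = 0 := by simp [hf, Real.zero_rpow h0.ne']
  have hcont : ContinuousWithinAt f (Ici 0) 0 := by
    unfold ContinuousWithinAt
    rw [hf0, tendsto_zero_iff_abs_tendsto_zero]
    have hlim : Tendsto (fun l : ℝ => z * (z ^ (α / 2) / (α / 2) * l ^ (α / 2)))
        (𝓝[Ici 0] 0) (𝓝 0) := by
      have hc : Continuous (fun l : ℝ => z * (z ^ (α / 2) / (α / 2) * l ^ (α / 2))) := by
        have : Continuous (fun l : ℝ => l ^ (α / 2)) :=
          Real.continuous_rpow_const (by linarith)
        fun_prop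
      have := hc.tendsto 0
      rw [Real.zero_rpow (by linarith : α / 2 ≠ 0), mul_zero, mul_zero] at this
      exact this.mono_left nhdsWithin_le_nhds
    refine tendsto_of_tendsto_of_tendsto_of_le_of_le' tendsto_const_nhds hlim
      (Eventually.of_forall fun l => abs_nonneg _) ?_
    filter_upwards [self_mem_nhdsWithin] with l hl
    have hl' : (0 : ℝ) ≤ l := hl
    rcases hl'.eq_or_lt with hl0 | hl0
    · subst hl0
      simp [hf, Real.zero_rpow h0.ne', Real.zero_rpow (by linarith : α / 2 ≠ 0)]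
    · refine (hup l hl0).trans (mul_le_mul_of_nonneg_left ?_ hz)
      have h2 := log_one_add_le (z / l) (α / 2) (div_nonneg hz hl0.le) (by linarith)
        (by linarith)
      have h3 : (z / l) ^ (α / 2) = z ^ (α / 2) * l ^ (-(α / 2)) := by
        rw [Real.div_rpow hz hl0.le, Real.rpow_neg hl0.le]; rfl
      calc l ^ α * Real.log (1 + z / l)
          ≤ l ^ α * ((z / l) ^ (α / 2) / (α / 2)) :=
            mul_le_mul_of_nonneg_left h2 (Real.rpow_nonneg hl0.le _)
        _ = z ^ (α / 2) / (α / 2) * (l ^ α * l ^ (-(α / 2))) := by rw [h3]; ring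
        _ = z ^ (α / 2) / (α / 2) * l ^ (α / 2) := by
            rw [← Real.rpow_add hl0]; congr 2; ring
  have hFTC := integral_Ioi_of_hasDerivAt_of_tendsto hcont hderiv hf'int htop
  rw [hf0, sub_zero] at hFTC
  simp only [hf'] at hFTC
  rw [integral_sub (hI.const_mul _) (hg.const_mul _), integral_const_mul, integral_const_mul,
    hgi] at hFTC
  have h5 : z * z ^ α = z ^ (1 + α) := by
    rcases hz.eq_or_lt with hz0 | hz0
    · subst hz0
      rw [Real.zero_rpow (by linarith : 1 + α ≠ 0), zero_mul]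
    · rw [Real.rpow_add hz0, Real.rpow_one]
  have h6 : (1 + α) ≠ 0 := by linarith
  rw [eq_div_iff h6, ← h5]
  linarith

theorem boundary_scalar (k l : ℝ) (hk : 0 < k) (hl : 0 < l) :
    2 * (((√(k ^ 2 + l) + k) * Real.log (√(k ^ 2 + l) + k) - (√(k ^ 2 + l) + k))
      - ((√(k ^ 2 + l) - k) * Real.log (√(k ^ 2 + l) - k) - (√(k ^ 2 + l) - k))
      - k * Real.log l) = ∫ t in (-k)..k, Real.log (1 + (k ^ 2 - t ^ 2) / l) := by
  set r := √(k ^ 2 + l) with hr
  have hr2 : r ^ 2 = k ^ 2 + l := Real.sq_sqrt (by positivity)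
  have hrk : k < r := by
    rw [hr]
    refine Real.lt_sqrt_of_sq_lt ?_
    linarith
  have e1 : ∫ t in (-k)..k, Real.log (1 + (k ^ 2 - t ^ 2) / l) =
      ∫ t in (-k)..k, (Real.log (r + t) + Real.log (r - t) - Real.log l) := by
    refine intervalIntegral.integral_congr fun t ht => ?_
    rw [uIcc_of_le (by linarith)] at ht
    have h1 : 0 < r + t := by linarith [ht.1]
    have h2 : 0 < r - t := by linarith [ht.2]
    show Real.log (1 + (k ^ 2 - t ^ 2) / l) = _
    rw [← Real.log_mul h1.ne' h2.ne', ← Real.log_div (mul_pos h1 h2).ne' hl.ne']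
    congr 1
    field_simp
    nlinarith
  have hc1 : IntervalIntegrable (fun t : ℝ => Real.log (r + t)) volume (-k) k := by
    refine ContinuousOn.intervalIntegrable ?_
    rw [uIcc_of_le (by linarith)]
    refine ContinuousOn.log (by fun_prop) fun t ht => ?_
    have : 0 < r + t := by linarith [ht.1]
    exact this.ne'
  have hc2 : IntervalIntegrable (fun t : ℝ => Real.log (r - t)) volume (-k) k := by
    refine ContinuousOn.intervalIntegrable ?_
    rw [uIcc_of_le (by linarith)]
    refine ContinuousOn.log (by fun_prop) fun t ht => ?_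
    have : 0 < r - t := by linarith [ht.2]
    exact this.ne'
  rw [e1, intervalIntegral.integral_sub (hc1.add hc2) (by simp),
    intervalIntegral.integral_add hc1 hc2, intervalIntegral.integral_comp_add_left,
    intervalIntegral.integral_comp_sub_left, integral_log, integral_log,
    intervalIntegral.integral_const, smul_eq_mul]
  rw [show r - -k = r + k by ring, show r + -k = r - k by ring]
  ring

open JRow Filter in
theorem integral_boundary (α : ℝ) (h0 : 0 < α) (h1 : α < 1) (k : ℝ) (hk : 0 < k) :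
    IntegrableOn (fun l : ℝ => l ^ (α - 1) * ∫ t in (-k)..k, Real.log (1 + (k ^ 2 - t ^ 2) / l))
      (Ioi 0) ∧
    ∫ l in Ioi (0 : ℝ), l ^ (α - 1) * ∫ t in (-k)..k, Real.log (1 + (k ^ 2 - t ^ 2) / l)
      = Jc α * bet α * k ^ (2 * α + 1) := by
  set F : ℝ → ℝ → ℝ := fun l t => l ^ (α - 1) * Real.log (1 + (k ^ 2 - t ^ 2) / l) with hF
  have hle : -k ≤ k := by linarith
  have hprod : Integrable (Function.uncurry F)
      ((volume.restrict (Ioi 0)).prod (volume.restrict (Ioc (-k) k))) := by
    have hdom : Integrable (fun p : ℝ × ℝ => (p.1 ^ (α - 1) * Real.log (1 + k ^ 2 / p.1)) * 1)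
        ((volume.restrict (Ioi 0)).prod (volume.restrict (Ioc (-k) k))) :=
      Integrable.mul_prod (f := fun l : ℝ => l ^ (α - 1) * Real.log (1 + k ^ 2 / l))
        (g := fun _ : ℝ => (1 : ℝ)) (integrableOn_g α h0 h1 (k ^ 2) (by positivity))
        (integrable_const 1)
    refine Integrable.mono' hdom ?_ ?_
    · have : Measurable (Function.uncurry F) := by
        simp only [hF, Function.uncurry_def]
        fun_prop
      exact this.aestronglyMeasurable
    · rw [Measure.prod_restrict]
      refine (ae_restrict_iff' (measurableSet_Ioi.prod measurableSet_Ioc)).2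
        (Eventually.of_forall fun p hp => ?_)
      have hp1 : (0 : ℝ) < p.1 := hp.1
      have hp2 : p.2 ^ 2 ≤ k ^ 2 := by
        have h3 : -k < p.2 := hp.2.1
        have h4 : p.2 ≤ k := hp.2.2
        nlinarith
      have hpow : 0 < p.1 ^ (α - 1) := Real.rpow_pos_of_pos hp1 _
      have hg := g_nonneg (k ^ 2 - p.2 ^ 2) p.1 (by linarith) hp1
      simp only [hF, Function.uncurry_def, mul_one]
      rw [Real.norm_eq_abs, abs_of_nonneg (mul_nonneg hpow.le hg)]
      refine mul_le_mul_of_nonneg_left (Real.log_le_log ?_ ?_) hpow.le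
      · have := div_nonneg (by linarith : 0 ≤ k ^ 2 - p.2 ^ 2) hp1.le
        linarith
      · have : (k ^ 2 - p.2 ^ 2) / p.1 ≤ k ^ 2 / p.1 := by
          gcongr
          nlinarith
        linarith
  have hinner : ∀ l : ℝ, l ^ (α - 1) * ∫ t in (-k)..k, Real.log (1 + (k ^ 2 - t ^ 2) / l) =
      ∫ t in Ioc (-k) k, F l t := by
    intro l
    rw [intervalIntegral.integral_of_le hle, ← integral_const_mul]
  constructor
  · have := hprod.integral_prod_left
    refine this.congr (Eventually.of_forall fun l => ?_)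
    exact (hinner l).symm
  · simp_rw [hinner]
    rw [integral_integral_swap hprod]
    have h2 : ∫ t in Ioc (-k) k, ∫ l in Ioi (0 : ℝ), F l t =
        ∫ t in Ioc (-k) k, Jc α * (k ^ 2 - t ^ 2) ^ α := by
      refine setIntegral_congr_fun measurableSet_Ioc fun t ht => ?_
      have h3 : 0 ≤ k ^ 2 - t ^ 2 := by nlinarith [ht.1, ht.2]
      exact (integrableOn_J α h0 h1 _ h3).2
    rw [h2, integral_const_mul, ← intervalIntegral.integral_of_le hle, mul_assoc]
    congr 1
    have h4 := intervalIntegral.integral_comp_mul_left (a := -1) (b := 1) (c := k)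
      (fun t : ℝ => (k ^ 2 - t ^ 2) ^ α) hk.ne'
    rw [mul_one, mul_neg, mul_one] at h4
    have h5 : ∫ x in (-1 : ℝ)..1, (k ^ 2 - (k * x) ^ 2) ^ α = k ^ (2 * α) * bet α := by
      unfold bet
      rw [← intervalIntegral.integral_const_mul]
      refine intervalIntegral.integral_congr fun x hx => ?_
      rw [uIcc_of_le (by norm_num)] at hx
      have hx1 : 0 ≤ 1 - x ^ 2 := by nlinarith [hx.1, hx.2]
      show (k ^ 2 - (k * x) ^ 2) ^ α = k ^ (2 * α) * (1 - x ^ 2) ^ α
      rw [show k ^ 2 - (k * x) ^ 2 = k ^ 2 * (1 - x ^ 2) by ring,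
        Real.mul_rpow (by positivity) hx1, ← Real.rpow_natCast k 2, ← Real.rpow_mul hk.le]
      norm_num
    rw [h5, smul_eq_mul] at h4
    have h6 : ∫ t in (-k)..k, (k ^ 2 - t ^ 2) ^ α = k * (k ^ (2 * α) * bet α) := by
      rw [h4, ← mul_assoc, mul_inv_cancel₀ hk.ne', one_mul]
    rw [h6, Real.rpow_add hk, Real.rpow_one]
    ring

end Vale.LT2
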