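import Mathlib

/-! P034: abstract kernel lemma. -/

namespace Vale.Agent.H25.P034K

open Finset

variable {α : Type*} [Fintype α] [DecidableEq α]

/-- A sub-Markov kernel on finite sets gives a fractional cover supported on the stopping sets.
`inv` is a property kept by the kernel. -/
theorem kernel {inv stop tgt : Finset α → Prop} {T : Finset α → Finset α → ℝ} {d : ℝ}
    (hd : 0 ≤ d) (hT0 : ∀ V Y, 0 ≤ T V Y)
    (hTne : ∀ V Y, T V Y ≠ 0 → Y.Nonempty ∧ Disjoint Y V)
    (hinv : ∀ V Y, inv V → ¬ stop V → T V Y ≠ 0 → inv (V ∪ Y))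
    (hcost : ∀ V, inv V → ¬ stop V → ∑ Y, T V Y * d ^ Y.card ≤ 1)
    (hcov : ∀ V U, inv V → ¬ stop V → V ⊆ U → tgt U → 1 ≤ ∑ Y ∈ U.powerset, T V Y) :
    ∀ V : Finset α, inv V →
    ∃ π : Finset α → ℝ, (∀ O, 0 ≤ π O) ∧ (∀ O, π O ≠ 0 → V ⊆ O ∧ stop O ∧ inv O) ∧
      (∀ U, V ⊆ U → tgt U → 1 ≤ ∑ O ∈ U.powerset, π O) ∧
      (∑ O, π O * d ^ (O \ V).card ≤ 1) ∧
      (¬ stop V → ∑ O, π O * d ^ (O \ V).card ≤ ∑ Y, T V Y * d ^ Y.card) := by
  suffices H : ∀ n : ℕ, ∀ V : Finset α, inv V → (univ \ V).card = n →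
      ∃ π : Finset α → ℝ, (∀ O, 0 ≤ π O) ∧ (∀ O, π O ≠ 0 → V ⊆ O ∧ stop O ∧ inv O) ∧
      (∀ U, V ⊆ U → tgt U → 1 ≤ ∑ O ∈ U.powerset, π O) ∧
      (∑ O, π O * d ^ (O \ V).card ≤ 1) ∧
      (¬ stop V → ∑ O, π O * d ^ (O \ V).card ≤ ∑ Y, T V Y * d ^ Y.card) from
    fun V hV => H _ V hV rfl
  intro n
  induction n using Nat.strong_induction_on with
  | _ n ih =>
  intro V hVi hV
  by_cases hL : stop V
  · refine ⟨fun O => if O = V then 1 else 0, fun O => by dsimp only; split_ifs <;> norm_num, ?_, ?_, ?_, ?_⟩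
    · intro O hO
      by_cases h : O = V
      · subst h; exact ⟨Finset.Subset.refl _, hL, hVi⟩
      · simp [h] at hO
    · intro U hU _
      rw [Finset.sum_ite_eq' U.powerset V (fun _ => (1 : ℝ)), if_pos (Finset.mem_powerset.mpr hU)]
    · have : ∀ O : Finset α, (if O = V then (1 : ℝ) else 0) * d ^ (O \ V).card
          = if O = V then 1 else 0 := by
        intro O
        by_cases h : O = V
        · subst h; simp
        · simp [h]
      rw [Finset.sum_congr rfl (fun O _ => this O)]
      simp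
    · intro h; exact absurd hL h
  · have hP : ∀ Y : Finset α, ∃ π : Finset α → ℝ, (∀ O, 0 ≤ π O) ∧
        (T V Y ≠ 0 →
        ((∀ O, π O ≠ 0 → V ∪ Y ⊆ O ∧ stop O ∧ inv O) ∧
        (∀ U, V ∪ Y ⊆ U → tgt U → 1 ≤ ∑ O ∈ U.powerset, π O) ∧
        (∑ O, π O * d ^ (O \ (V ∪ Y)).card ≤ 1))) := by
      intro Y
      by_cases hY0 : T V Y = 0
      · exact ⟨fun _ => 0, fun _ => le_refl _, fun h => absurd hY0 h⟩
      · have hY := hTne V Y hY0
        have hlt : (univ \ (V ∪ Y)).card < n := by
          rw [← hV]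
          apply Finset.card_lt_card
          obtain ⟨y, hy⟩ := hY.1
          rw [Finset.ssubset_iff_of_subset]
          · exact ⟨y, by simp [Finset.disjoint_left.mp hY.2 hy], by simp [hy]⟩
          · exact Finset.sdiff_subset_sdiff (Finset.Subset.refl _) Finset.subset_union_left
        obtain ⟨π, h1, h2, h3, h4, _⟩ := ih _ hlt (V ∪ Y) (hinv V Y hVi hL hY0) rfl
        exact ⟨π, h1, fun _ => ⟨h2, h3, h4⟩⟩
    choose P hP0 hP1 using hP
    have hcost' : ∑ O, (∑ Y, T V Y * P Y O) * d ^ (O \ V).card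
        ≤ ∑ Y, T V Y * d ^ Y.card := by
      have h1 : ∑ O, (∑ Y, T V Y * P Y O) * d ^ (O \ V).card
          = ∑ Y, T V Y * ∑ O, P Y O * d ^ (O \ V).card := by
        simp_rw [Finset.sum_mul, Finset.mul_sum]
        rw [Finset.sum_comm]
        refine Finset.sum_congr rfl (fun Y _ => Finset.sum_congr rfl (fun O _ => by ring))
      rw [h1]
      refine Finset.sum_le_sum (fun Y _ => ?_)
      by_cases hTY : T V Y = 0
      · rw [hTY]; simp
      · have hY := hTne V Y hTY
        obtain ⟨h2, _, h4⟩ := hP1 Y hTY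
        have h5 : ∑ O, P Y O * d ^ (O \ V).card
            = d ^ Y.card * ∑ O, P Y O * d ^ (O \ (V ∪ Y)).card := by
          rw [Finset.mul_sum]
          refine Finset.sum_congr rfl (fun O _ => ?_)
          by_cases hO : P Y O = 0
          · rw [hO]; simp
          · obtain ⟨h6, _⟩ := h2 O hO
            have h7 : (O \ V).card = Y.card + (O \ (V ∪ Y)).card := by
              have h8 : O \ V = Y ∪ (O \ (V ∪ Y)) := by
                ext x
                simp only [Finset.mem_sdiff, Finset.mem_union]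
                constructor
                · rintro ⟨hx, hx2⟩
                  by_cases hxY : x ∈ Y
                  · exact Or.inl hxY
                  · exact Or.inr ⟨hx, by rintro (h | h); exacts [hx2 h, hxY h]⟩
                · rintro (hx | ⟨hx, hx2⟩)
                  · exact ⟨h6 (Finset.mem_union_right _ hx), Finset.disjoint_left.mp hY.2 hx⟩
                  · exact ⟨hx, fun h => hx2 (Or.inl h)⟩
              rw [h8, Finset.card_union_of_disjoint]
              rw [Finset.disjoint_left]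
              intro x hx hx2
              exact (Finset.mem_sdiff.mp hx2).2 (Finset.mem_union_right _ hx)
            rw [h7, pow_add]; ring
        rw [h5]
        have h9 : d ^ Y.card * ∑ O, P Y O * d ^ (O \ (V ∪ Y)).card ≤ d ^ Y.card := by
          have : 0 ≤ d ^ Y.card := pow_nonneg hd _
          nlinarith
        exact mul_le_mul_of_nonneg_left h9 (hT0 V Y)
    refine ⟨fun O => ∑ Y, T V Y * P Y O, ?_, ?_, ?_, ?_, ?_⟩
    · intro O
      exact Finset.sum_nonneg (fun Y _ => mul_nonneg (hT0 V Y) (hP0 Y O))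
    · intro O hO
      obtain ⟨Y, _, hY⟩ := Finset.exists_ne_zero_of_sum_ne_zero hO
      have hTY : T V Y ≠ 0 := by
        intro h; apply hY; rw [h]; simp
      have hPY : P Y O ≠ 0 := by
        intro h; apply hY; rw [h]; simp
      obtain ⟨h2, _, _⟩ := hP1 Y hTY
      obtain ⟨h6, h7⟩ := h2 O hPY
      exact ⟨Finset.subset_union_left.trans h6, h7⟩
    · intro U hVU hU
      have h1 : ∑ O ∈ U.powerset, (∑ Y, T V Y * P Y O)
          = ∑ Y, T V Y * ∑ O ∈ U.powerset, P Y O := by
        rw [Finset.sum_comm]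
        refine Finset.sum_congr rfl (fun Y _ => ?_)
        rw [Finset.mul_sum]
      rw [h1]
      have h2 : ∑ Y ∈ U.powerset, T V Y
          ≤ ∑ Y, T V Y * ∑ O ∈ U.powerset, P Y O := by
        calc ∑ Y ∈ U.powerset, T V Y
            ≤ ∑ Y ∈ U.powerset, T V Y * ∑ O ∈ U.powerset, P Y O := by
              refine Finset.sum_le_sum (fun Y hYU => ?_)
              by_cases hTY : T V Y = 0
              · rw [hTY]; simp
              · obtain ⟨_, h3, _⟩ := hP1 Y hTY
                have h4 := h3 U (Finset.union_subset hVU (Finset.mem_powerset.mp hYU)) hU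
                have h5 : 0 ≤ T V Y := hT0 V Y
                nlinarith
          _ ≤ _ := by
              refine Finset.sum_le_sum_of_subset_of_nonneg (Finset.subset_univ _)
                (fun Y _ _ => ?_)
              exact mul_nonneg (hT0 V Y)
                (Finset.sum_nonneg (fun O _ => hP0 Y O))
      exact (hcov V U hVi hL hVU hU).trans h2
    · exact hcost'.trans (hcost V hVi hL)
    · intro _; exact hcost'

end Vale.Agent.H25.P034K
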