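import Vale.Agent.H2.P034.Iter

/-! P034: three fractional levels and a fallback. -/

namespace Vale.Agent.H25.P034L

open Finset Vale.Agent.H2.P034

variable {α : Type*} [Fintype α] [DecidableEq α]

/-- Three levels of fractional covers and a last explicit list `Tg` of targets give a small
integral cover of `Tg`. -/
theorem lists {q : ℝ} (hq : 0 ≤ q) (Tg : Finset (Finset α))
    {π₀ π₁ π₂ : Finset α → ℝ} (h₀ : ∀ O, 0 ≤ π₀ O) (h₁ : ∀ O, 0 ≤ π₁ O) (h₂ : ∀ O, 0 ≤ π₂ O)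
    (c₁ : ∀ U, π₁ U ≠ 0 → 1 ≤ ∑ O ∈ U.powerset, π₀ O)
    (c₂ : ∀ U, π₂ U ≠ 0 → 1 ≤ ∑ O ∈ U.powerset, π₁ O)
    (c₃ : ∀ U ∈ Tg, 1 ≤ ∑ O ∈ U.powerset, π₂ O)
    {L₀ L₁ L₂ : ℝ} (l₀ : 0 ≤ L₀) (l₁ : 0 ≤ L₁) (l₂ : 0 ≤ L₂) :
    ∃ R : Finset (Finset α), (∀ V ∈ Tg, ∃ O ∈ R, O ⊆ V) ∧
      ∑ O ∈ R, q ^ O.card ≤ L₀ * ∑ O, π₀ O * q ^ O.card
        + Real.exp (-L₀) * (L₁ * ∑ O, π₁ O * q ^ O.card)
        + Real.exp (-L₁) * (L₂ * ∑ O, π₂ O * q ^ O.card)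
        + Real.exp (-L₂) * ∑ V ∈ Tg, q ^ V.card := by
  obtain ⟨R1, e1⟩ := step hq l₀ ∅ π₀ h₀ (fun U => L₁ * (π₁ U * q ^ U.card))
    (fun U => mul_nonneg l₁ (mul_nonneg (h₁ U) (pow_nonneg hq _)))
    (fun U hU => c₁ U (fun h => hU (by rw [h]; simp)))
  obtain ⟨R2, e2⟩ := step hq l₁ R1 π₁ h₁ (fun U => L₂ * (π₂ U * q ^ U.card))
    (fun U => mul_nonneg l₂ (mul_nonneg (h₂ U) (pow_nonneg hq _)))
    (fun U hU => c₂ U (fun h => hU (by rw [h]; simp)))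
  obtain ⟨R3, e3⟩ := step hq l₂ R2 π₂ h₂ (fun U => if U ∈ Tg then q ^ U.card else 0)
    (fun U => by split_ifs; exacts [pow_nonneg hq _, le_refl _])
    (fun U hU => c₃ U (by by_contra h; exact hU (if_neg h)))
  rw [← Finset.mul_sum, ← Finset.mul_sum] at e1 e2
  rw [Finset.sum_empty, zero_add] at e1
  have e0 : ∑ O with Avoid (∅ : Finset (Finset α)) O, π₀ O * q ^ O.card
      ≤ ∑ O, π₀ O * q ^ O.card :=
    Finset.sum_le_sum_of_subset_of_nonneg (Finset.filter_subset _ _)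
      (fun O _ _ => mul_nonneg (h₀ O) (pow_nonneg hq _))
  have e0' := mul_le_mul_of_nonneg_left e0 l₀
  have f1 : ∑ U, (if U ∈ Tg then q ^ U.card else 0) = ∑ V ∈ Tg, q ^ V.card := by
    rw [Finset.sum_ite_mem, Finset.univ_inter]
  have f2 : ∑ U with Avoid R3 U, (if U ∈ Tg then q ^ U.card else 0)
      = ∑ V ∈ Tg with Avoid R3 V, q ^ V.card := by
    rw [Finset.sum_ite_mem]
    refine Finset.sum_congr ?_ (fun _ _ => rfl)
    ext U; simp only [Finset.mem_inter, Finset.mem_filter, Finset.mem_univ, true_and]; tauto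
  rw [f1, f2] at e3
  refine ⟨R3 ∪ Tg.filter (fun V => Avoid R3 V), ?_, ?_⟩
  · intro V hV
    by_cases h : Avoid R3 V
    · exact ⟨V, Finset.mem_union_right _ (by simp [hV, h]), Finset.Subset.refl _⟩
    · unfold Avoid at h
      push Not at h
      obtain ⟨O, hO, hOV⟩ := h
      exact ⟨O, Finset.mem_union_left _ hO, hOV⟩
  · have g1 : ∑ O ∈ R3 ∪ Tg.filter (fun V => Avoid R3 V), q ^ O.card
        ≤ ∑ O ∈ R3, q ^ O.card + ∑ V ∈ Tg with Avoid R3 V, q ^ V.card := by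
      rw [← Finset.sum_union_inter]
      have : 0 ≤ ∑ O ∈ R3 ∩ Tg.filter (fun V => Avoid R3 V), q ^ O.card :=
        Finset.sum_nonneg (fun O _ => pow_nonneg hq _)
      linarith
    linarith

end Vale.Agent.H25.P034L
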