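import Mathlib

namespace Vale.Agent.H25.P150

open MeasureTheory ProbabilityTheory

theorem measPres {ι : Type} [Fintype ι] [DecidableEq ι] (e : ι) :
    MeasurePreserving (fun p : (ι → ℝ) × ℝ => Function.update p.1 e p.2)
      ((Measure.pi (fun _ : ι => gaussianReal 0 1)).prod (gaussianReal 0 1))
      (Measure.pi (fun _ : ι => gaussianReal 0 1)) := by
  have hmeas : Measurable (fun p : (ι → ℝ) × ℝ => Function.update p.1 e p.2) := by
    rw [measurable_pi_iff]
    intro i
    by_cases h : i = e
    · subst h
      simpa using measurable_snd
    · simp only [Function.update_of_ne h]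
      exact (measurable_pi_apply i).comp measurable_fst
  refine ⟨hmeas, ?_⟩
  symm
  apply Measure.pi_eq
  intro s hs
  rw [Measure.map_apply hmeas (MeasurableSet.univ_pi hs)]
  have hpre : (fun p : (ι → ℝ) × ℝ => Function.update p.1 e p.2) ⁻¹' (Set.univ.pi s) =
      (Set.univ.pi (fun i => if i = e then Set.univ else s i)) ×ˢ s e := by
    ext ⟨x, y⟩
    simp only [Set.mem_preimage, Set.mem_univ_pi, Set.mem_prod]
    constructor
    · intro h
      refine ⟨fun i => ?_, ?_⟩
      · by_cases hi : i = e
        · simp [hi]
        · have := h i
          rw [Function.update_of_ne hi] at this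
          simpa [hi] using this
      · have := h e
        rwa [Function.update_self] at this
    · rintro ⟨h1, h2⟩ i
      by_cases hi : i = e
      · subst hi
        rwa [Function.update_self]
      · rw [Function.update_of_ne hi]
        have := h1 i
        simpa [hi] using this
  rw [hpre, Measure.prod_prod, Measure.pi_pi]
  rw [← Finset.mul_prod_erase Finset.univ (fun i => (gaussianReal 0 1) (s i)) (Finset.mem_univ e),
    ← Finset.mul_prod_erase Finset.univ (fun i => (gaussianReal 0 1)
      (if i = e then Set.univ else s i)) (Finset.mem_univ e)]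
  have h3 : ∏ x ∈ Finset.univ.erase e, (gaussianReal 0 1) (if x = e then Set.univ else s x) =
      ∏ x ∈ Finset.univ.erase e, (gaussianReal 0 1) (s x) := by
    apply Finset.prod_congr rfl
    intro x hx
    rw [if_neg (Finset.ne_of_mem_erase hx)]
  rw [h3, if_pos rfl, measure_univ, one_mul, mul_comm]

end Vale.Agent.H25.P150
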